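import Vale.Agent.P233.H769.PotC
import Vale.Agent.P233.H165.TailM

/-!
# Limit potentials (block A6), part 5: the field `plim` of `PA.OutA`, with the tail of helper165
-/

set_option linter.all false

open MeasureTheory Filter Topology Set
open scoped ENNReal NNReal

universe u

namespace Vale.Agent.P233

namespace H769

open PA

variable {M : Type u} [MetricSpace M] [CompleteSpace M] [SecondCountableTopology M]
  [MeasurableSpace M] [BorelSpace M] {m : Measure M} {K N : ℝ}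
  {P : ℝ → (M →ₘ[m] ℝ) → (M →ₘ[m] ℝ)} {p : M} {s₀ C₀ : ℝ}

omit [CompleteSpace M] in
/-- tails of `u` and `φ` along `en` -/
theorem tails (hS : Std m K N) (hP : Heat (sob m) K P) (p : M) (hs : 0 < s₀) (hC₀ : 0 ≤ C₀)
    {l : M →ₘ[m] ℝ} (hl : l ∈ (sob m).TestI) {r : ℝ} (hlr : ∀ᵐ x ∂m, r ≤ dist p x → l x = 0)
    {φ u : ℕ → ℝ → M →ₘ[m] ℝ}
    (hfam : ∀ᶠ n in atTop, Fam (sob m) P (en n) (cl m (zr p s₀ C₀ 0)) l (φ n) (u n)) :
    ∃ R₀ : ℝ, ∀ t ∈ Icc (0 : ℝ) 1,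
      Tendsto (fun n => ∫ x in (Metric.ball p R₀)ᶜ, (u n t x) ^ 2 ∂m) atTop (𝓝 0) ∧
      Tendsto (fun n => ∫ x in (Metric.ball p R₀)ᶜ, (φ n t x) ^ 2 ∂m) atTop (𝓝 0) := by
  obtain ⟨D, hD, h⟩ := H165.fam_tails hS hP p hs hC₀ hl hlr
  refine ⟨H165.R1 s₀ C₀ r + 2, fun t ht => ?_⟩
  have h1 : Tendsto (fun n => (en n)⁻¹) atTop atTop :=
    tendsto_inv_nhdsGT_zero.comp en_tendsto'
  have h2 : Tendsto (fun n => D * Real.exp (-(en n)⁻¹)) atTop (𝓝 0) := by
    have := (Real.tendsto_exp_neg_atTop_nhds_zero.comp h1).const_mul D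
    simpa using this
  constructor
  · refine squeeze_zero' (Eventually.of_forall fun n => integral_nonneg fun x => sq_nonneg _) ?_ h2
    filter_upwards [hfam] with n hn
    exact (h (en n) (en_le_one n) (φ n) (u n) hn t ht).2.1
  · refine squeeze_zero' (Eventually.of_forall fun n => integral_nonneg fun x => sq_nonneg _) ?_ h2
    filter_upwards [hfam] with n hn
    exact (h (en n) (en_le_one n) (φ n) (u n) hn t ht).2.2.2.1

/-- **the field `plim` of `PA.OutA`**, from the other fields -/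
theorem plim (hS : Std m K N) (hP : Heat (sob m) K P) (p : M) (hs : 0 < s₀) (hC₀ : 0 ≤ C₀)
    {φ u : ℕ → ℝ → M →ₘ[m] ℝ}
    (hfam : ∀ᶠ n in atTop, Fam (sob m) P (en n) (cl m (zr p s₀ C₀ 0)) 0 (φ n) (u n))
    (hLU : ∃ D D', ∀ᶠ n in atTop, LevU (sob m) K N (en n) C₀ D D' (u n))
    (hLF : ∃ D D', ∀ᶠ n in atTop, LevF (sob m) K N (en n) C₀ 1 D D' 0 (φ n) (u n))
    (hul : ULim m K N p s₀ C₀ u) :
    ∀ U : Ultrafilter ℕ, (U : Filter ℕ) ≤ atTop → ∃ φ₀ L B R₀ c,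
      PotLim m N p s₀ C₀ U φ u φ₀ L B R₀ c := by
  have hC : IsGamma (sob m) := H599.std_gamma hS
  have h0 : (0 : M →ₘ[m] ℝ) ∈ (sob m).TestI := hC.testI_zero (hC.bei hS.hN hS.rcd.bochner)
  obtain ⟨R₀, hR⟩ := tails hS hP p hs hC₀ h0 (r := 0) (by
    filter_upwards [zero_ae (M := M) (m := m)] with x hx _
    exact hx) hfam
  exact potLim hS hs hC₀ hfam hLU hLF hul ⟨R₀, fun t ht => (hR t ht).2⟩

end H769

end Vale.Agent.P233
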