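import Vale.Agent.P233.Gig.Defs
import Vale.Agent.P233.H589.Lat

/-!
# Limit potentials (block A6), part 1: densities vanish where `φ < u`
-/

set_option linter.all false

open MeasureTheory Filter Topology Set
open scoped ENNReal NNReal

namespace Vale.Agent.P233

namespace H769

variable {M : Type*} [MeasurableSpace M] {m : Measure M}

/-- `u n → v` in `L²(w m)` for all weights `w ∈ L¹`. -/
def LocL2 {ι : Type*} (l : Filter ι) (u : ι → M →ₘ[m] ℝ) (v : M → ℝ) : Prop :=
  ∀ w : M → ℝ, (∀ x, 0 ≤ w x) → Integrable w m →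
    Tendsto (fun n => ∫ x, w x * (u n x - v x) ^ 2 ∂m) l (𝓝 0)

variable {ι : Type*} {l : Filter ι} [l.NeBot]

theorem integrable_w_sq {w : M → ℝ} (hw : Integrable w m) {f : M → ℝ}
    (hf : AEStronglyMeasurable f m) {B : ℝ} (hB : ∀ᵐ x ∂m, |f x| ≤ B) :
    Integrable (fun x => w x * f x ^ 2) m := by
  have : Integrable (fun x => f x ^ 2 * w x) m := by
    refine hw.bdd_mul (c := B ^ 2) (hf.pow 2) ?_
    filter_upwards [hB] with x hx
    rw [norm_pow, Real.norm_eq_abs]
    exact pow_le_pow_left₀ (abs_nonneg _) hx 2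
  simpa [mul_comm] using this

/-- The mass of a family of densities `≤ c₀ exp ((φ n - u n) / ε n)` on a set where the limit
potentials satisfy `φ + 2 δ < u` tends to zero. -/
theorem mass_tendsto_zero {ε : ι → ℝ} (hε : Tendsto ε l (𝓝[>] 0))
    {φn un rn : ι → M →ₘ[m] ℝ} {φ u : M → ℝ} (hφm : AEStronglyMeasurable φ m)
    (hum : AEStronglyMeasurable u m) {B : ℝ} (hφB : ∀ᵐ x ∂m, |φ x| ≤ B) (huB : ∀ᵐ x ∂m, |u x| ≤ B)
    (hφnB : ∀ᶠ n in l, ∀ᵐ x ∂m, |φn n x| ≤ B) (hunB : ∀ᶠ n in l, ∀ᵐ x ∂m, |un n x| ≤ B)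
    (h1 : LocL2 l φn φ) (h2 : LocL2 l un u) {c₀ k : ℝ} (hc₀ : 0 ≤ c₀) (hk : 0 ≤ k)
    (hr : ∀ᶠ n in l, ∀ᵐ x ∂m, |rn n x| ≤ c₀ * Real.exp ((ε n)⁻¹ * (φn n x - un n x)))
    (hrk : ∀ᶠ n in l, ∀ᵐ x ∂m, |rn n x| ≤ k) {δ : ℝ} (hδ : 0 < δ) {A : Set M} (hA : MeasurableSet A)
    (hAf : m A ≠ ∞) (hAδ : ∀ x ∈ A, φ x + 2 * δ < u x) :
    Tendsto (fun n => ∫ x in A, |rn n x| ∂m) l (𝓝 0) := by
  set w : M → ℝ := A.indicator fun _ => (1 : ℝ) with hw
  have hwi : Integrable w m := (integrable_indicator_iff hA).2 (integrableOn_const hAf)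
  have hw0 : ∀ x, 0 ≤ w x := fun x => Set.indicator_nonneg (fun _ _ => zero_le_one) x
  have hε0 : Tendsto (fun n => c₀ * Real.exp (-(δ * (ε n)⁻¹)) * m.real A) l (𝓝 0) := by
    have e1 : Tendsto (fun n => (ε n)⁻¹) l atTop := tendsto_inv_nhdsGT_zero.comp hε
    have e2 : Tendsto (fun n => δ * (ε n)⁻¹) l atTop := e1.const_mul_atTop hδ
    have e3 := Real.tendsto_exp_neg_atTop_nhds_zero.comp e2
    have e4 := (e3.const_mul c₀).mul_const (m.real A)
    simpa using e4
  have hlim : Tendsto (fun n => c₀ * Real.exp (-(δ * (ε n)⁻¹)) * m.real A +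
      2 * k / δ ^ 2 * (∫ x, w x * (φn n x - φ x) ^ 2 ∂m + ∫ x, w x * (un n x - u x) ^ 2 ∂m))
      l (𝓝 0) := by
    have := hε0.add (((h1 w hw0 hwi).add (h2 w hw0 hwi)).const_mul (2 * k / δ ^ 2))
    simpa using this
  refine squeeze_zero' (Eventually.of_forall fun n => integral_nonneg fun x => abs_nonneg _) ?_ hlim
  have hpos : ∀ᶠ n in l, 0 < ε n := hε (self_mem_nhdsWithin)
  filter_upwards [hpos, hφnB, hunB, hr, hrk] with n hn hφnB hunB hr hrk
  have i1 : Integrable (fun x => w x * (φn n x - φ x) ^ 2) m := by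
    refine integrable_w_sq hwi ((φn n).aestronglyMeasurable.sub hφm) (B := 2 * B) ?_
    filter_upwards [hφB, hφnB] with x a b
    calc |φn n x - φ x| ≤ |φn n x| + |φ x| := abs_sub _ _
      _ ≤ 2 * B := by linarith
  have i2 : Integrable (fun x => w x * (un n x - u x) ^ 2) m := by
    refine integrable_w_sq hwi ((un n).aestronglyMeasurable.sub hum) (B := 2 * B) ?_
    filter_upwards [huB, hunB] with x a b
    calc |un n x - u x| ≤ |un n x| + |u x| := abs_sub _ _
      _ ≤ 2 * B := by linarith
  have i3 : Integrable (fun x => w x * (c₀ * Real.exp (-(δ * (ε n)⁻¹)))) m := hwi.mul_const _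
  have key : ∫ x in A, |rn n x| ∂m ≤ ∫ x, (w x * (c₀ * Real.exp (-(δ * (ε n)⁻¹))) +
      2 * k / δ ^ 2 * (w x * (φn n x - φ x) ^ 2 + w x * (un n x - u x) ^ 2)) ∂m := by
    rw [← integral_indicator hA]
    refine integral_mono_of_nonneg ?_ (i3.add ((i1.add i2).const_mul _)) ?_
    · exact Eventually.of_forall fun x => Set.indicator_nonneg (fun _ _ => abs_nonneg _) x
    · filter_upwards [hr, hrk] with x hx hxk
      by_cases hxA : x ∈ A
      · have hw1 : w x = 1 := by rw [hw, Set.indicator_of_mem hxA]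
        rw [Set.indicator_of_mem hxA, hw1]
        simp only [one_mul]
        have hd := hAδ x hxA
        have hexp0 : 0 ≤ c₀ * Real.exp (-(δ * (ε n)⁻¹)) := mul_nonneg hc₀ (Real.exp_pos _).le
        have hsq0 : 0 ≤ 2 * k / δ ^ 2 * ((φn n x - φ x) ^ 2 + (un n x - u x) ^ 2) := by positivity
        by_cases hc : φn n x - un n x ≤ -δ
        · have : |rn n x| ≤ c₀ * Real.exp (-(δ * (ε n)⁻¹)) := by
            refine hx.trans (mul_le_mul_of_nonneg_left (Real.exp_le_exp.2 ?_) hc₀)
            have := mul_le_mul_of_nonneg_left hc (inv_nonneg.2 hn.le)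
            linarith
          linarith
        · push Not at hc
          have h5 : δ ≤ (φn n x - φ x) - (un n x - u x) := by linarith
          have h6 : δ ^ 2 ≤ 2 * ((φn n x - φ x) ^ 2 + (un n x - u x) ^ 2) := by
            nlinarith [sq_nonneg ((φn n x - φ x) + (un n x - u x))]
          have h7 : k ≤ 2 * k / δ ^ 2 * ((φn n x - φ x) ^ 2 + (un n x - u x) ^ 2) := by
            rw [div_mul_eq_mul_div, le_div_iff₀ (by positivity)]
            nlinarith
          linarith
      · have hw1 : w x = 0 := by rw [hw, Set.indicator_of_notMem hxA]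
        rw [Set.indicator_of_notMem hxA, hw1]
        simp
  refine key.trans (le_of_eq ?_)
  have i4 : Integrable (fun x => 2 * k / δ ^ 2 *
      (w x * (φn n x - φ x) ^ 2 + w x * (un n x - u x) ^ 2)) m := (i1.add i2).const_mul _
  rw [integral_add i3 i4, integral_const_mul, integral_add i1 i2, integral_mul_const]
  have : ∫ x, w x ∂m = m.real A := by
    rw [hw, integral_indicator hA]; simp
  rw [this]
  ring

/-- Weak limits of densities `≤ c₀ exp ((φ n - u n) / ε n)` vanish on `{φ < u}`. -/
theorem dead [SigmaFinite m] {ε : ι → ℝ} (hε : Tendsto ε l (𝓝[>] 0))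
    {φn un rn : ι → M →ₘ[m] ℝ} {φ u : M → ℝ} (hφm : AEStronglyMeasurable φ m)
    (hum : AEStronglyMeasurable u m) {B : ℝ} (hφB : ∀ᵐ x ∂m, |φ x| ≤ B) (huB : ∀ᵐ x ∂m, |u x| ≤ B)
    (hφnB : ∀ᶠ n in l, ∀ᵐ x ∂m, |φn n x| ≤ B) (hunB : ∀ᶠ n in l, ∀ᵐ x ∂m, |un n x| ≤ B)
    (h1 : LocL2 l φn φ) (h2 : LocL2 l un u) {c₀ k : ℝ} (hc₀ : 0 ≤ c₀) (hk : 0 ≤ k)
    (hr : ∀ᶠ n in l, ∀ᵐ x ∂m, |rn n x| ≤ c₀ * Real.exp ((ε n)⁻¹ * (φn n x - un n x)))
    (hrk : ∀ᶠ n in l, ∀ᵐ x ∂m, |rn n x| ≤ k) {r : M →ₘ[m] ℝ}
    (hw : ∀ g : M →ₘ[m] ℝ, MemLp g 1 m → MemLp g ∞ m →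
      Tendsto (fun n => I (rn n * g)) l (𝓝 (I (r * g)))) :
    ∀ᵐ x ∂m, φ x < u x → r x = 0 := by
  -- measurable versions
  obtain ⟨φ', hφ'm, hφ'⟩ := hφm
  obtain ⟨u', hu'm, hu'⟩ := hum
  have h1' : LocL2 l φn φ' := by
    intro w a b
    refine (h1 w a b).congr fun n => integral_congr_ae ?_
    filter_upwards [hφ'] with x hx
    rw [hx]
  have h2' : LocL2 l un u' := by
    intro w a b
    refine (h2 w a b).congr fun n => integral_congr_ae ?_
    filter_upwards [hu'] with x hx
    rw [hx]
  set r' : M → ℝ := r.aestronglyMeasurable.mk r with hr'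
  have hr'm : StronglyMeasurable r' := r.aestronglyMeasurable.stronglyMeasurable_mk
  have hrr' : r =ᵐ[m] r' := r.aestronglyMeasurable.ae_eq_mk
  have main : ∀ (j k' i : ℕ), ∀ᵐ x ∂m, x ∈ spanningSets m j →
      φ' x + 2 * ((k' : ℝ) + 1)⁻¹ < u' x → |r' x| ≤ i → r' x = 0 := by
    intro j k' i
    have hδ : (0 : ℝ) < ((k' : ℝ) + 1)⁻¹ := by positivity
    set A : Set M := spanningSets m j ∩ ({x | φ' x + 2 * ((k' : ℝ) + 1)⁻¹ < u' x} ∩
      {x | |r' x| ≤ i}) with hA
    have hAm : MeasurableSet A :=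
      (measurableSet_spanningSets m j).inter
        ((measurableSet_lt (hφ'm.measurable.add_const _) hu'm.measurable).inter
          (measurableSet_le hr'm.measurable.norm measurable_const))
    have hAf : m A ≠ ∞ := ((measure_mono inter_subset_left).trans_lt
      (measure_spanningSets_lt_top m j)).ne
    have hlim := mass_tendsto_zero hε (φ := φ') (u := u') hφ'm.aestronglyMeasurable
      hu'm.aestronglyMeasurable (by filter_upwards [hφB, hφ'] with x a b; rwa [← b])
      (by filter_upwards [huB, hu'] with x a b; rwa [← b]) hφnB hunB h1' h2' hc₀ hk hr hrk hδ hAm hAf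
      (fun x hx => hx.2.1)
    -- test function
    set g0 : M → ℝ := A.indicator fun x => SignType.sign (r' x) with hg0
    have hsgn : Measurable fun x => ((SignType.sign (r' x) : SignType) : ℝ) := by
      have : Measurable fun t : ℝ => ((SignType.sign t : SignType) : ℝ) := by
        have e : (fun t : ℝ => ((SignType.sign t : SignType) : ℝ)) =
            fun t => if 0 < t then 1 else if t < 0 then -1 else 0 := by
          funext t
          rcases lt_trichotomy t 0 with h | h | h
          · simp [sign_neg h, h, h.le, not_lt.2 h.le]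
          · simp [h]
          · simp [sign_pos h, h]
        rw [e]
        exact Measurable.ite measurableSet_Ioi measurable_const
          (Measurable.ite measurableSet_Iio measurable_const measurable_const)
      exact this.comp hr'm.measurable
    have hg0m : Measurable g0 := hsgn.indicator hAm
    have hg0b : ∀ x, |g0 x| ≤ 1 := by
      intro x
      rw [hg0]
      by_cases hx : x ∈ A
      · rw [Set.indicator_of_mem hx]
        rcases lt_trichotomy (r' x) 0 with h | h | h
        · simp [sign_neg h]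
        · simp [h]
        · simp [sign_pos h]
      · rw [Set.indicator_of_notMem hx]; simp
    have hg0i : Integrable g0 m := by
      refine (((integrable_indicator_iff hAm).2 (integrableOn_const hAf :
        IntegrableOn (fun _ => (1 : ℝ)) A m))).mono' hg0m.aestronglyMeasurable ?_
      refine Eventually.of_forall fun x => ?_
      by_cases hx : x ∈ A
      · rw [Set.indicator_of_mem hx]; exact hg0b x
      · rw [hg0, Set.indicator_of_notMem hx, Set.indicator_of_notMem hx]; simp
    set g : M →ₘ[m] ℝ := AEEqFun.mk g0 hg0m.aestronglyMeasurable with hg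
    have hgg : g =ᵐ[m] g0 := AEEqFun.coeFn_mk _ _
    have hg1 : MemLp g 1 m := (memLp_congr_ae hgg).2 (memLp_one_iff_integrable.2 hg0i)
    have hgt : MemLp g ∞ m := (memLp_congr_ae hgg).2
      (memLp_top_of_bound hg0m.aestronglyMeasurable 1 (Eventually.of_forall hg0b))
    have hlim2 := hw g hg1 hgt
    have hz : Tendsto (fun n => I (rn n * g)) l (𝓝 0) := by
      refine squeeze_zero_norm' ?_ hlim
      filter_upwards [hrk] with n hrk
      have e1 : I (rn n * g) = ∫ x in A, rn n x * g0 x ∂m := by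
        unfold I
        rw [← integral_indicator hAm]
        refine integral_congr_ae ?_
        filter_upwards [mul_ae (rn n) g, hgg] with x a b
        rw [a, b]
        by_cases hx : x ∈ A
        · rw [Set.indicator_of_mem hx]
        · rw [hg0, Set.indicator_of_notMem hx, Set.indicator_of_notMem hx, mul_zero]
      rw [e1]
      refine (norm_integral_le_integral_norm _).trans ?_
      have iA : IntegrableOn (fun x => |rn n x|) A m := by
        refine (integrableOn_const hAf : IntegrableOn (fun _ => k) A m).mono'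
          ((rn n).aestronglyMeasurable.norm.restrict) ?_
        refine ae_restrict_of_ae ?_
        filter_upwards [hrk] with x hx
        rw [Real.norm_eq_abs, abs_abs]; exact hx
      refine integral_mono_of_nonneg (Eventually.of_forall fun x => norm_nonneg _) iA
        (Eventually.of_forall fun x => ?_)
      simp only [norm_mul, Real.norm_eq_abs]
      exact mul_le_of_le_one_right (abs_nonneg _) (hg0b x)
    have h0 : I (r * g) = 0 := tendsto_nhds_unique hlim2 hz
    have e2 : I (r * g) = ∫ x, A.indicator (fun x => |r' x|) x ∂m := by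
      unfold I
      refine integral_congr_ae ?_
      filter_upwards [mul_ae r g, hgg, hrr'] with x a b c
      rw [a, b, c]
      by_cases hx : x ∈ A
      · rw [hg0, Set.indicator_of_mem hx, Set.indicator_of_mem hx]
        rcases lt_trichotomy (r' x) 0 with h | h | h
        · simp [sign_neg h, abs_of_neg h]
        · simp [h]
        · simp [sign_pos h, abs_of_pos h]
      · rw [hg0, Set.indicator_of_notMem hx, Set.indicator_of_notMem hx, mul_zero]
    have hi : Integrable (A.indicator fun x => |r' x|) m := by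
      refine (((integrable_indicator_iff hAm).2 (integrableOn_const hAf :
        IntegrableOn (fun _ => (i : ℝ)) A m))).mono' (hr'm.measurable.norm.indicator
          hAm).aestronglyMeasurable ?_
      refine Eventually.of_forall fun x => ?_
      by_cases hx : x ∈ A
      · rw [Set.indicator_of_mem hx, Set.indicator_of_mem hx, Real.norm_eq_abs, abs_abs]
        exact hx.2.2
      · rw [Set.indicator_of_notMem hx, Set.indicator_of_notMem hx]; simp
    rw [e2] at h0
    have := (integral_eq_zero_iff_of_nonneg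
      (fun x => Set.indicator_nonneg (fun _ _ => abs_nonneg _) x) hi).1 h0
    filter_upwards [this] with x hx hxj hxk hxi
    have hxA : x ∈ A := ⟨hxj, hxk, hxi⟩
    rw [Set.indicator_of_mem hxA] at hx
    simpa using hx
  filter_upwards [ae_all_iff.2 fun j => ae_all_iff.2 fun k' => ae_all_iff.2 fun i => main j k' i,
    hφ', hu', hrr'] with x hx a b c hlt
  rw [a, b] at hlt
  obtain ⟨k', hk'⟩ := exists_nat_one_div_lt (show (0 : ℝ) < (u' x - φ' x) / 2 by linarith)
  have hj : ∃ j, x ∈ spanningSets m j := by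
    have : x ∈ ⋃ j, spanningSets m j := by rw [iUnion_spanningSets]; trivial
    exact mem_iUnion.1 this
  obtain ⟨j, hj⟩ := hj
  obtain ⟨i, hi⟩ := exists_nat_ge (|r' x|)
  rw [c]
  refine hx j k' i hj ?_ hi
  rw [one_div] at hk'
  linarith

end H769

end Vale.Agent.P233
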