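import Vale.Agent.P233.Gig.IfA
import Vale.Agent.P233.H769.Dead
import Vale.Agent.P233.H169.Grad
import Vale.Agent.P233.H196.UST4
import Vale.Agent.P233.H599.Low

/-!
# Limit potentials (block A6), part 2: existence of the limit, convergence
-/

set_option linter.all false

open MeasureTheory Filter Topology Set
open scoped ENNReal NNReal

universe u

namespace Vale.Agent.P233

namespace H769

open PA

variable {M : Type u} [MetricSpace M] [CompleteSpace M] [SecondCountableTopology M]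
  [MeasurableSpace M] [BorelSpace M] {m : Measure M} {K N : ℝ}

omit [CompleteSpace M] in
/-- classes of Lipschitz functions with bounded support -/
theorem cl_mem (hfin : ∀ (x : M) (r : ℝ), m (Metric.ball x r) < ∞) {F : M → ℝ} {k : ℝ≥0}
    (hF : LipschitzWith k F) {x₀ : M} {R : ℝ} (hR : ∀ x, x ∉ Metric.ball x₀ R → F x = 0) :
    cl m F ∈ (sob m).A ∧ (∀ᵐ x ∂m, (sob m).Γ (cl m F) (cl m F) x ≤ (k : ℝ) ^ 2) ∧
      (⇑(cl m F) =ᵐ[m] F) := by
  have hae : ⇑(cl m F) =ᵐ[m] F := H599.cl_ae hF.continuous.measurable.aestronglyMeasurable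
  have hg := Met.good_of_bounded_support hfin hF hR
  have hW12 : Met.W12 m F := ⟨_, hg.rSlope⟩
  have hW : cl m F ∈ (sob m).W := mem_sob_iff.2 (hW12.congr hae.symm)
  obtain ⟨C, hC⟩ := Met.bdd_of_bounded_support hF hR
  refine ⟨⟨hW, mem_top_iff.2 ⟨C, ?_⟩⟩, ?_, hae⟩
  · filter_upwards [hae] with x hx
    rw [hx]; exact hC x
  · have h4 := slope_le_of_lipschitz hfin hW hae hF
    rw [le_iff_ae] at h4
    filter_upwards [h4, sob_Γ_self_ae hW, slope_ae hW, smul_ae (1 : M →ₘ[m] ℝ) (k : ℝ),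
      one_ae (M := M) (m := m), (mem_sob_iff.1 hW).mslope_nonneg] with x a1 a2 a3 a4 a5 a6
    rw [a3, a4, a5, mul_one] at a1
    rw [a2]
    gcongr

omit [CompleteSpace M] [SecondCountableTopology M] in
/-- from almost everywhere to everywhere -/
theorem le_of_ae_le [m.IsOpenPosMeasure] {f g : M → ℝ} (hf : Continuous f) (hg : Continuous g)
    (h : ∀ᵐ x ∂m, f x ≤ g x) (x : M) : f x ≤ g x := by
  have h1 : Dense {x | f x ≤ g x} := Measure.dense_of_ae h
  have h2 : IsClosed {x | f x ≤ g x} := isClosed_le hf hg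
  have h3 := h1.closure_eq
  rw [h2.closure_eq] at h3
  have : x ∈ {x | f x ≤ g x} := by rw [h3]; trivial
  exact this

/-- The representatives of the potentials of level `ε`. -/
theorem exists_rep (hS : Std m K N) {D : ℝ} (hD : 0 < D) {S : Set ℝ}
    {φ : ℝ → M →ₘ[m] ℝ} (hW : ∀ t ∈ S, φ t ∈ (sob m).W)
    (hbd : ∀ t ∈ S, ∀ᵐ x ∂m, |φ t x| ≤ D)
    (hlip : ∀ t ∈ S, ∀ᵐ x ∂m, (sob m).Γ (φ t) (φ t) x ≤ D ^ 2)
    (htime : ∀ s ∈ S, ∀ t ∈ S, ∀ᵐ x ∂m, |φ t x - φ s x| ≤ D * |t - s|) :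
    ∃ Φ : ℝ → M → ℝ, (∀ s ∈ S, ∀ t ∈ S, ∀ x y, |Φ s x - Φ t y| ≤ D * (|s - t| + dist x y)) ∧
      (∀ t ∈ S, ∀ x, |Φ t x| ≤ D) ∧ ∀ t ∈ S, ⇑(φ t) =ᵐ[m] Φ t := by
  haveI := hS.full
  have h1 : ∀ t : ℝ, ∃ F : M → ℝ, t ∈ S → (∀ x y, |F x - F y| ≤ D * dist x y) ∧ ⇑(φ t) =ᵐ[m] F := by
    intro t
    by_cases ht : t ∈ S
    · obtain ⟨F, hF1, hF2⟩ := exists_lip_rep hS.rcd.sobolev_to_lipschitz (hW t ht) hD (hlip t ht)
      exact ⟨F, fun _ => ⟨hF1, hF2⟩⟩
    · exact ⟨fun _ => 0, fun h => absurd h ht⟩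
  choose Φ hΦ using h1
  have hc : ∀ t ∈ S, Continuous (Φ t) := fun t ht =>
    (LipschitzWith.of_dist_le_mul (K := ⟨D, hD.le⟩) fun x y => by
      rw [Real.dist_eq]; exact (hΦ t ht).1 x y).continuous
  refine ⟨Φ, fun s hs t ht x y => ?_, fun t ht x => ?_, fun t ht => (hΦ t ht).2⟩
  · have e1 : |Φ s x - Φ t x| ≤ D * |s - t| := by
      refine le_of_ae_le (m := m) (f := fun x => |Φ s x - Φ t x|) (g := fun _ => D * |s - t|)
        ((hc s hs).sub (hc t ht)).abs continuous_const ?_ x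
      filter_upwards [htime t ht s hs, (hΦ s hs).2, (hΦ t ht).2] with z a b c
      rw [← b, ← c]; exact a
    have e2 := (hΦ t ht).1 x y
    calc |Φ s x - Φ t y| = |(Φ s x - Φ t x) + (Φ t x - Φ t y)| := by ring_nf
      _ ≤ |Φ s x - Φ t x| + |Φ t x - Φ t y| := abs_add_le _ _
      _ ≤ D * (|s - t| + dist x y) := by linarith
  · refine le_of_ae_le (m := m) (f := fun x => |Φ t x|) (g := fun _ => D) (hc t ht).abs
      continuous_const ?_ x
    filter_upwards [hbd t ht, (hΦ t ht).2] with z a b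
    rw [← b]; exact a

omit [CompleteSpace M] [SecondCountableTopology M] [BorelSpace M] [MetricSpace M] in
theorem rh_ae {ε : ℝ} {φ u : ℝ → M →ₘ[m] ℝ} {t : ℝ} :
    ∀ᵐ x ∂m, rh ε φ u t x = Real.exp (ε⁻¹ * (φ t x - u t x)) := by
  unfold rh ex
  filter_upwards [AEEqFun.coeFn_comp Real.exp Real.continuous_exp (ε⁻¹ • (φ t - u t)),
    smul_ae (φ t - u t) ε⁻¹, sub_ae (φ t) (u t)] with x a b c
  rw [a, Function.comp_apply, b, c]

theorem en_pos (n : ℕ) : 0 < en n := by unfold en; positivity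

theorem en_tendsto : Tendsto en atTop (𝓝 0) := tendsto_inv_succ

theorem en_tendsto' : Tendsto en atTop (𝓝[>] 0) :=
  tendsto_nhdsWithin_iff.2 ⟨en_tendsto, Eventually.of_forall fun n => en_pos n⟩

theorem en_le_one (n : ℕ) : en n ≤ 1 := by
  unfold en
  rw [inv_le_one₀ (by positivity)]
  linarith [Nat.cast_nonneg (α := ℝ) n]

end H769

end Vale.Agent.P233
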