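import Vale.Agent.P233.H769.PotA

/-!
# Limit potentials (block A6), part 3: the structure `PotLim`
-/

set_option linter.all false

open MeasureTheory Filter Topology Set
open scoped ENNReal NNReal

universe u

namespace Vale.Agent.P233

namespace H769

open PA

variable {M : Type u} [MetricSpace M] [CompleteSpace M] [SecondCountableTopology M]
  [MeasurableSpace M] [BorelSpace M] {m : Measure M} {K N : ℝ}

/-- Data after the choice of representatives: `φ n t` has the representative `Φ n t`, and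
`Φ n t → φ₀ t` pointwise along `U`. -/
structure Dat (m : Measure M) (N : ℝ) (p : M) (U : Ultrafilter ℕ) (φ : ℕ → ℝ → M →ₘ[m] ℝ)
    (Φ : ℕ → ℝ → M → ℝ) (φ₀ : ℝ → M → ℝ) (D R : ℝ) : Prop where
  std : ∃ K, Std m K N
  D0 : 0 < D
  lipB : ∀ᶠ n in (U : Filter ℕ), UST.LipB D D 0 1 (Φ n)
  rep : ∀ᶠ n in (U : Filter ℕ), ∀ t ∈ Icc (0 : ℝ) 1, ⇑(φ n t) =ᵐ[m] Φ n t
  mem : ∀ᶠ n in (U : Filter ℕ), ∀ t ∈ Icc (0 : ℝ) 1, φ n t ∈ (sob m).TestI
  grad : ∀ᶠ n in (U : Filter ℕ), ∀ t ∈ Icc (0 : ℝ) 1, ∀ᵐ x ∂m,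
    (sob m).Γ (φ n t) (φ n t) x ≤ D ^ 2
  lap : ∀ᶠ n in (U : Filter ℕ), ∀ t ∈ Ico (0 : ℝ) 1, ∀ᵐ x ∂m,
    -(N / (1 - t) + D) ≤ (sob m).lap (φ n t) x
  lip0 : UST.LipB D D 0 1 φ₀
  lim : ∀ t ∈ Icc (0 : ℝ) 1, ∀ x, Tendsto (fun n => Φ n t x) U (𝓝 (φ₀ t x))
  far : ∀ t ∈ Icc (0 : ℝ) 1, ∀ x, R ≤ dist p x → φ₀ t x = 0

variable {p : M} {U : Ultrafilter ℕ} {φ : ℕ → ℝ → M →ₘ[m] ℝ} {Φ : ℕ → ℝ → M → ℝ}
  {φ₀ : ℝ → M → ℝ} {D R : ℝ}

theorem Dat.cont (h : Dat m N p U φ Φ φ₀ D R) {t : ℝ} (ht : t ∈ Icc (0 : ℝ) 1) :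
    Continuous (φ₀ t) := h.lip0.continuous ht

theorem Dat.ae (h : Dat m N p U φ Φ φ₀ D R) {t : ℝ} (ht : t ∈ Icc (0 : ℝ) 1) :
    ⇑(cl m (φ₀ t)) =ᵐ[m] φ₀ t := H599.cl_ae (h.cont ht).measurable.aestronglyMeasurable

theorem Dat.clm (h : Dat m N p U φ Φ φ₀ D R) {t : ℝ} (ht : t ∈ Icc (0 : ℝ) 1) :
    cl m (φ₀ t) ∈ (sob m).A ∧
      (∀ᵐ x ∂m, (sob m).Γ (cl m (φ₀ t)) (cl m (φ₀ t)) x ≤ D ^ 2) := by
  obtain ⟨K, hS⟩ := h.std
  have hL : LipschitzWith ⟨D, h.D0.le⟩ (φ₀ t) := LipschitzWith.of_dist_le_mul fun x y => by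
    have := h.lip0.lip t ht t ht x y
    rw [sub_self, abs_zero, zero_add] at this
    rw [Real.dist_eq]; exact this
  obtain ⟨h1, h2, h3⟩ := cl_mem hS.hfin hL (x₀ := p) (R := R) (fun x hx => by
    refine h.far t ht x ?_
    rw [Metric.mem_ball, not_lt, dist_comm] at hx
    exact hx)
  exact ⟨h1, h2⟩

/-- convergence in weighted `L²` -/
theorem Dat.conv (h : Dat m N p U φ Φ φ₀ D R) {t : ℝ} (ht : t ∈ Icc (0 : ℝ) 1)
    {w : M → ℝ} (hw : Integrable w m) :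
    Tendsto (fun n => ∫ x, |w x| * (φ n t x - φ₀ t x) ^ 2 ∂m) U (𝓝 0) := by
  have h1 := fun (ε : ℝ) (hε : 0 < ε) => UST.integral_unif_sq hw h.lipB h.lip0 h.lim hε
  rw [Metric.tendsto_nhds]
  intro ε hε
  filter_upwards [h1 (ε / 2) (by positivity), h.rep] with n hn hr
  have e : ∫ x, |w x| * (φ n t x - φ₀ t x) ^ 2 ∂m = ∫ x, |w x| * (Φ n t x - φ₀ t x) ^ 2 ∂m := by
    refine integral_congr_ae ?_
    filter_upwards [hr t ht] with x hx
    rw [hx]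
  rw [e, Real.dist_eq, sub_zero, abs_of_nonneg (integral_nonneg fun x => by positivity)]
  linarith [hn t ht]

theorem Dat.convφ (h : Dat m N p U φ Φ φ₀ D R) {t : ℝ} (ht : t ∈ Icc (0 : ℝ) 1)
    {w : M →ₘ[m] ℝ} (hw0 : 0 ≤ w) (hw : MemLp w 1 m) :
    Tendsto (fun n => I (w * (φ n t - cl m (φ₀ t)) ^ 2)) U (𝓝 0) := by
  refine (h.conv ht (int_of_mem hw)).congr fun n => ?_
  unfold I
  refine integral_congr_ae ?_
  filter_upwards [nonneg_iff_ae.1 hw0, mul_ae w ((φ n t - cl m (φ₀ t)) ^ 2),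
    sq_ae (φ n t - cl m (φ₀ t)), sub_ae (φ n t) (cl m (φ₀ t)), h.ae ht] with x a b c d e
  rw [b, c, d, e, abs_of_nonneg a]

/-- cut-off functions -/
theorem exists_cutoffs (hS : Std m K N) (p : M) (r : ℝ) :
    cl m (Met.cutoff p r) ∈ (sob m).A ∧
      (∀ᵐ x ∂m, (sob m).Γ (cl m (Met.cutoff p r)) (cl m (Met.cutoff p r)) x ≤ 1) ∧
      (⇑(cl m (Met.cutoff p r)) =ᵐ[m] Met.cutoff p r) := by
  obtain ⟨h1, h2, h3⟩ := cl_mem hS.hfin (Met.cutoff_lip p r) (x₀ := p) (R := r + 1)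
    (fun x hx => Met.cutoff_eq_zero hx)
  refine ⟨h1, ?_, h3⟩
  filter_upwards [h2] with x hx
  simpa using hx

/-- lower Laplacian bound in weak form -/
theorem weak_lap (hC : IsGamma (sob m)) {f : M →ₘ[m] ℝ} (hf : f ∈ (sob m).TestI) {c : ℝ}
    (hl : ∀ᵐ x ∂m, -c ≤ (sob m).lap f x) {g : M →ₘ[m] ℝ} (hg : g ∈ (sob m).W) (g0 : 0 ≤ g)
    (g1 : MemLp g 1 m) : I ((sob m).Γ f g) ≤ c * I g := by
  have h1 : I ((sob m).Γ f g) = -I ((sob m).lap f * g) := (hC.test_isLap hf.1).2.2 g hg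
  rw [h1, ← I_smul, ← I_neg]
  have hl2 : MemLp ((sob m).lap f * g : M →ₘ[m] ℝ) 1 m := mem_mul_top hf.2 g1
  refine I_mono (mem_neg hl2) (mem_smul _ g1) ?_
  rw [le_iff_ae]
  filter_upwards [hl, nonneg_iff_ae.1 g0, neg_ae ((sob m).lap f * g), mul_ae ((sob m).lap f) g,
    smul_ae g c] with x a b d e f'
  rw [d, e, f']
  nlinarith

theorem Dat.gradφ (h : Dat m N p U φ Φ φ₀ D R) {t : ℝ} (ht : t ∈ Ico (0 : ℝ) 1)
    {w : M →ₘ[m] ℝ} (hw : MemLp w 1 m) :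
    Tendsto (fun n => I (w * (sob m).Γ (φ n t - cl m (φ₀ t)) (φ n t - cl m (φ₀ t)))) U (𝓝 0) := by
  obtain ⟨K, hS⟩ := h.std
  have hC : IsGamma (sob m) := H599.std_gamma hS
  have hD := hC.toIsDir
  have ht' : t ∈ Icc (0 : ℝ) 1 := ⟨ht.1, ht.2.le⟩
  obtain ⟨hA, hG⟩ := h.clm ht'
  set v := cl m (φ₀ t) with hv
  have hneg : ∀ a ∈ (sob m).W, (sob m).Γ (-a) (-a) = (sob m).Γ a a := fun a ha => by
    rw [hD.Γ_neg_left ha (hD.neg_mem ha), hD.Γ_neg_right ha ha, neg_neg]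
  have hLam : 0 ≤ N / (1 - t) + D := by
    have : 0 < 1 - t := by linarith [ht.2]
    have := div_pos hS.hN this
    linarith [h.D0]
  refine UST.tendsto_I_weight (K := 4 * D ^ 2) ?_
    (ζ := fun j : ℕ => cl m (Met.cutoff p j)) ?_ ?_ ?_ ?_ hw
  · filter_upwards [h.mem, h.grad] with n hn hg
    have hnW := (hC.test_A (hn t ht').1).1
    exact ⟨hD.nonneg _ (hD.sub_mem hnW hA.1), hD.grad_sub_bd hnW hA.1 (hg t ht') hG⟩
  · intro j
    filter_upwards [(exists_cutoffs hS p j).2.2] with x hx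
    rw [hx, abs_of_nonneg (Met.cutoff_nonneg _ _ _)]
    exact Met.cutoff_le_one _ _ _
  · intro j
    exact hD.memLp _ (exists_cutoffs hS p j).1.1
  · filter_upwards [ae_all_iff.2 fun j : ℕ => (exists_cutoffs hS p j).2.2] with x hx
    simp only [hx]
    exact Met.tendsto_cutoff p x
  · intro j
    obtain ⟨z1, z2, z3⟩ := exists_cutoffs hS p j
    set ζ := cl m (Met.cutoff p j) with hζ
    have hζt : MemLp ((sob m).Γ ζ ζ) ∞ m := mem_top_iff.2 ⟨1, by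
      filter_upwards [z2, hD.Γ_nonneg_ae z1.1] with x a b
      rw [abs_of_nonneg b]; exact a⟩
    have hζ2 : MemLp (ζ ^ 2 : M →ₘ[m] ℝ) 1 m := mem_sq (hD.memLp _ z1.1)
    have h0 := h.convφ ht' (sq_nonneg' ζ) hζ2
    have h1 := hD.tendsto_grad' (l := (U : Filter ℕ)) (u := fun n => -φ n t) (v := -v) (ζ := ζ)
      (L := D) (Lam := N / (1 - t) + D) h.D0.le hLam (hD.neg_mem hA.1)
      (by rw [hneg _ hA.1]; exact hG) (by
        filter_upwards [h.mem, h.grad, h.lap] with n hn hg hl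
        have hnW := (hC.test_A (hn t ht').1).1
        refine ⟨hD.neg_mem hnW, ?_, fun g hgA g0 g1 => ?_⟩
        · rw [hneg _ hnW]; exact hg t ht'
        · rw [hD.Γ_neg_left hnW hgA.1, I_neg, neg_neg]
          exact weak_lap hC (hn t ht') (hl t ht) hgA.1 g0 g1) z1 hζt (by
        refine h0.congr fun n => ?_
        have e : -φ n t - -v = -(φ n t - v) := by abel
        rw [e]
        congr 1
        ring)
    refine h1.congr' ?_
    filter_upwards [h.mem] with n hn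
    have hnW := (hC.test_A (hn t ht').1).1
    have e : -φ n t - -v = -(φ n t - v) := by abel
    rw [e, hneg _ (hD.sub_mem hnW hA.1)]

/-- the weak lower bound of the Laplacian of the limit -/
theorem Dat.lapφ (h : Dat m N p U φ Φ φ₀ D R) {t : ℝ} (ht : t ∈ Ico (0 : ℝ) 1)
    {g : M →ₘ[m] ℝ} (hg : g ∈ (sob m).W) (g0 : 0 ≤ g) (g1 : MemLp g 1 m) :
    I ((sob m).Γ (cl m (φ₀ t)) g) ≤ (N / (1 - t) + D) * I g := by
  obtain ⟨K, hS⟩ := h.std
  have hC : IsGamma (sob m) := H599.std_gamma hS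
  have hD := hC.toIsDir
  have ht' : t ∈ Icc (0 : ℝ) 1 := ⟨ht.1, ht.2.le⟩
  obtain ⟨hA, hG⟩ := h.clm ht'
  set v := cl m (φ₀ t) with hv
  have hLam : 0 ≤ N / (1 - t) + D := by
    have : 0 < 1 - t := by linarith [ht.2]
    have := div_pos hS.hN this
    linarith [h.D0]
  -- the cut-off
  obtain ⟨z1, z2, z3⟩ := exists_cutoffs hS p R
  set ζ := cl m (Met.cutoff p R) with hζ
  have hζt : MemLp ((sob m).Γ ζ ζ) ∞ m := mem_top_iff.2 ⟨1, by
    filter_upwards [z2, hD.Γ_nonneg_ae z1.1] with x a b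
    rw [abs_of_nonneg b]; exact a⟩
  have hb : ζ * g ∈ (sob m).W := hD.mul_mem_lip z1 hζt hg
  have hb0 : 0 ≤ ζ * g := by
    rw [nonneg_iff_ae]
    filter_upwards [mul_ae ζ g, z3, nonneg_iff_ae.1 g0] with x a b c
    rw [a, b]
    exact mul_nonneg (Met.cutoff_nonneg _ _ _) c
  have hb1 : MemLp (ζ * g : M →ₘ[m] ℝ) 1 m := mem_mul_top z1.2 g1
  have hbg : I (ζ * g) ≤ I g := by
    refine I_mono hb1 g1 ?_
    rw [le_iff_ae]
    filter_upwards [mul_ae ζ g, z3, nonneg_iff_ae.1 g0] with x a b c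
    rw [a, b]
    exact mul_le_of_le_one_left c (Met.cutoff_le_one _ _ _)
  -- `⟨∇v,∇g⟩ = ⟨∇v,∇(ζ g)⟩`
  have e1 : (sob m).Γ v g = (sob m).Γ v (ζ * g) := by
    have e2 : (sob m).Γ (ζ * g) v = ζ * (sob m).Γ g v + g * (sob m).Γ ζ v :=
      hD.Γ_mul_left_lip z1 hζt hg hA.1
    rw [eq_iff_ae]
    filter_upwards [eq_iff_ae.1 (hD.symm _ hA.1 _ hb), eq_iff_ae.1 e2,
      add_ae (ζ * (sob m).Γ g v) (g * (sob m).Γ ζ v), mul_ae ζ ((sob m).Γ g v),
      mul_ae g ((sob m).Γ ζ v), eq_iff_ae.1 (hD.symm _ hg _ hA.1), z3, h.ae ht',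
      hD.Γ_level z1.1 hA.1 1, hD.Γ_ae_zero hA.1 hg, hD.Γ_ae_zero hA.1 hb]
      with x a1 a2 a3 a4 a5 a6 a7 a8 a9 a10 a11
    by_cases hx : v x = 0
    · rw [a10 hx, a11 hx]
    · have hd : dist p x < R := by
        by_contra hcon
        push Not at hcon
        exact hx (by rw [a8]; exact h.far t ht' x hcon)
      have hone : ζ x = 1 := by
        rw [a7]
        exact Met.cutoff_eq_one (by rw [dist_comm]; exact hd.le)
      rw [a1, a2, a3, a4, a5, a9 hone, hone, a6]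
      ring
  -- the second cut-off
  obtain ⟨y1, y2, y3⟩ := exists_cutoffs hS p (R + 1)
  set χ := cl m (Met.cutoff p (R + 1)) with hχ
  have hχ2 : MemLp χ 2 m := hD.memLp _ y1.1
  -- convergence
  have hs : SConv (U : Filter ℕ) (fun n => (sob m).Γ (ζ * g) (φ n t)) ((sob m).Γ (ζ * g) v) := by
    refine UST.sconv_Γ hD (K := 4 * D ^ 2) ?_ hA.1 ?_ (ζ := fun j : ℕ => cl m (Met.cutoff p j))
      ?_ ?_ ?_ ?_ hb
    · filter_upwards [h.mem] with n hn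
      exact (hC.test_A (hn t ht').1).1
    · filter_upwards [h.mem, h.grad] with n hn hg'
      have hnW := (hC.test_A (hn t ht').1).1
      exact hD.grad_sub_bd hnW hA.1 (hg' t ht') hG
    · intro j
      filter_upwards [(exists_cutoffs hS p j).2.2] with x hx
      rw [hx, abs_of_nonneg (Met.cutoff_nonneg _ _ _)]
      exact Met.cutoff_le_one _ _ _
    · intro j
      exact hD.memLp _ (exists_cutoffs hS p j).1.1
    · filter_upwards [ae_all_iff.2 fun j : ℕ => (exists_cutoffs hS p j).2.2] with x hx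
      simp only [hx]
      exact Met.tendsto_cutoff p x
    · intro j
      exact h.gradφ ht (mem_sq (hD.memLp _ (exists_cutoffs hS p j).1.1))
  have hlim : Tendsto (fun n => I ((sob m).Γ (ζ * g) (φ n t))) U (𝓝 (I ((sob m).Γ (ζ * g) v))) := by
    rw [tendsto_iff_dist_tendsto_zero]
    have l1 := (Real.continuous_sqrt.tendsto 0).comp hs.lim
    simp only [Real.sqrt_zero, Function.comp_def] at l1
    have l2 := l1.const_mul (√(I (χ ^ 2)))
    rw [mul_zero] at l2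
    refine squeeze_zero' (Eventually.of_forall fun n => dist_nonneg) ?_ l2
    filter_upwards [h.mem, hs.mem] with n hn hm
    have hnW := (hC.test_A (hn t ht').1).1
    have e3 : I ((sob m).Γ (ζ * g) (φ n t)) - I ((sob m).Γ (ζ * g) v)
        = I (χ * ((sob m).Γ (ζ * g) (φ n t) - (sob m).Γ (ζ * g) v)) := by
      rw [← I_sub (hD.Γ_mem1 hb hnW) (hD.Γ_mem1 hb hA.1)]
      unfold I
      refine integral_congr_ae ?_
      filter_upwards [mul_ae χ ((sob m).Γ (ζ * g) (φ n t) - (sob m).Γ (ζ * g) v),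
        sub_ae ((sob m).Γ (ζ * g) (φ n t)) ((sob m).Γ (ζ * g) v), hD.Γ_ae_zero hb hnW,
        hD.Γ_ae_zero hb hA.1, y3, z3, mul_ae ζ g] with x a1 a2 a3 a4 a5 a6 a7
      rw [a1, a2]
      by_cases hx : dist x p ≤ R + 1
      · rw [a5, Met.cutoff_eq_one hx, one_mul]
      · have h0 : (ζ * g : M →ₘ[m] ℝ) x = 0 := by
          rw [a7, a6, Met.cutoff_eq_zero (by
            rw [Metric.mem_ball, not_lt]; linarith [not_le.1 hx]), zero_mul]
        rw [a3 h0, a4 h0]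
        ring
    rw [Real.dist_eq, e3]
    exact I_abs_le hχ2 hm
  have hle : ∀ᶠ n in (U : Filter ℕ), I ((sob m).Γ (ζ * g) (φ n t)) ≤ (N / (1 - t) + D) * I g := by
    filter_upwards [h.mem, h.lap] with n hn hl
    have hnW := (hC.test_A (hn t ht').1).1
    rw [hD.symm _ hb _ hnW]
    refine (weak_lap hC (hn t ht') (hl t ht) hb hb0 hb1).trans ?_
    exact mul_le_mul_of_nonneg_left hbg hLam
  rw [e1, hD.symm _ hA.1 _ hb]
  exact le_of_tendsto hlim hle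

end H769

end Vale.Agent.P233
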