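import Vale.Agent.P233.H769.PotB
import Vale.Agent.P233.H715.GradW
import Vale.Agent.P233.H599.Conv

/-!
# Limit potentials (block A6), part 4: the field `plim` of `PA.OutA`
-/

set_option linter.all false

open MeasureTheory Filter Topology Set
open scoped ENNReal NNReal

universe u

namespace Vale.Agent.P233

namespace H769

open PA

section unique

variable {M : Type*} [MeasurableSpace M]

/-- uniqueness of limits in weighted `L²` -/
theorem limit_unique {ι : Type*} {l : Filter ι} [l.NeBot] {μ : Measure M} [SigmaFinite μ]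
    {f : ι → M → ℝ} {v v' : M → ℝ} (hf : ∀ᶠ n in l, AEStronglyMeasurable (f n) μ)
    (hv : AEStronglyMeasurable v μ) (hv' : AEStronglyMeasurable v' μ) {B : ℝ}
    (hfB : ∀ᶠ n in l, ∀ᵐ x ∂μ, |f n x| ≤ B) (hvB : ∀ᵐ x ∂μ, |v x| ≤ B)
    (hvB' : ∀ᵐ x ∂μ, |v' x| ≤ B)
    (h : ∀ w : M → ℝ, (∀ x, 0 ≤ w x) → (∀ x, w x ≤ 1) → Integrable w μ →
      Tendsto (fun n => ∫ x, w x * (f n x - v x) ^ 2 ∂μ) l (𝓝 0))
    (h' : ∀ w : M → ℝ, (∀ x, 0 ≤ w x) → (∀ x, w x ≤ 1) → Integrable w μ →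
      Tendsto (fun n => ∫ x, w x * (f n x - v' x) ^ 2 ∂μ) l (𝓝 0)) : v =ᵐ[μ] v' := by
  have main : ∀ j : ℕ, ∀ᵐ x ∂μ, x ∈ spanningSets μ j → v x = v' x := by
    intro j
    set A := spanningSets μ j with hA
    have hAm : MeasurableSet A := measurableSet_spanningSets μ j
    have hAf : μ A ≠ ∞ := (measure_spanningSets_lt_top μ j).ne
    set w : M → ℝ := A.indicator fun _ => (1 : ℝ) with hw
    have hwi : Integrable w μ := (integrable_indicator_iff hAm).2 (integrableOn_const hAf)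
    have hw0 : ∀ x, 0 ≤ w x := fun x => Set.indicator_nonneg (fun _ _ => zero_le_one) x
    have hw1 : ∀ x, w x ≤ 1 := fun x => by
      by_cases hx : x ∈ A
      · rw [hw, Set.indicator_of_mem hx]
      · rw [hw, Set.indicator_of_notMem hx]; exact zero_le_one
    have hlim : Tendsto (fun n => 2 * (∫ x, w x * (f n x - v x) ^ 2 ∂μ) +
        2 * (∫ x, w x * (f n x - v' x) ^ 2 ∂μ)) l (𝓝 0) := by
      simpa using ((h w hw0 hw1 hwi).const_mul 2).add ((h' w hw0 hw1 hwi).const_mul 2)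
    have bd : ∀ g : M → ℝ, AEStronglyMeasurable g μ → (∀ᵐ x ∂μ, |g x| ≤ 2 * B) →
        Integrable (fun x => w x * g x ^ 2) μ := by
      intro g hg hgB
      have : Integrable (fun x => g x ^ 2 * w x) μ := by
        refine hwi.bdd_mul (c := (2 * B) ^ 2) (hg.pow 2) ?_
        filter_upwards [hgB] with x hx
        rw [norm_pow, Real.norm_eq_abs]
        exact pow_le_pow_left₀ (abs_nonneg _) hx 2
      simpa [mul_comm] using this
    have i0 : Integrable (fun x => w x * (v x - v' x) ^ 2) μ := by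
      refine bd (fun x => v x - v' x) (hv.sub hv') ?_
      filter_upwards [hvB, hvB'] with x a b
      calc |v x - v' x| ≤ |v x| + |v' x| := abs_sub _ _
        _ ≤ 2 * B := by linarith
    have hle : ∀ᶠ n in l, ∫ x, w x * (v x - v' x) ^ 2 ∂μ ≤
        2 * (∫ x, w x * (f n x - v x) ^ 2 ∂μ) + 2 * (∫ x, w x * (f n x - v' x) ^ 2 ∂μ) := by
      filter_upwards [hf, hfB] with n hfn hfB
      have i1 : Integrable (fun x => w x * (f n x - v x) ^ 2) μ := by
        refine bd (fun x => f n x - v x) (hfn.sub hv) ?_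
        filter_upwards [hvB, hfB] with x a b
        calc |f n x - v x| ≤ |f n x| + |v x| := abs_sub _ _
          _ ≤ 2 * B := by linarith
      have i2 : Integrable (fun x => w x * (f n x - v' x) ^ 2) μ := by
        refine bd (fun x => f n x - v' x) (hfn.sub hv') ?_
        filter_upwards [hvB', hfB] with x a b
        calc |f n x - v' x| ≤ |f n x| + |v' x| := abs_sub _ _
          _ ≤ 2 * B := by linarith
      rw [← integral_const_mul, ← integral_const_mul,
        ← integral_add (i1.const_mul 2) (i2.const_mul 2)]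
      refine integral_mono i0 ((i1.const_mul 2).add (i2.const_mul 2)) fun x => ?_
      simp only
      have := hw0 x
      nlinarith [mul_nonneg this (sq_nonneg ((f n x - v x) + (f n x - v' x)))]
    have h0 : ∫ x, w x * (v x - v' x) ^ 2 ∂μ ≤ 0 := ge_of_tendsto hlim hle
    have h1 : ∫ x, w x * (v x - v' x) ^ 2 ∂μ = 0 :=
      le_antisymm h0 (integral_nonneg fun x => mul_nonneg (hw0 x) (sq_nonneg _))
    have h2 := (integral_eq_zero_iff_of_nonneg
      (fun x => mul_nonneg (hw0 x) (sq_nonneg _)) i0).1 h1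
    filter_upwards [h2] with x hx hxA
    rw [hw] at hx
    simp only [Set.indicator_of_mem hxA, one_mul, Pi.zero_apply] at hx
    have := pow_eq_zero_iff (two_ne_zero) |>.1 hx
    linarith
  filter_upwards [ae_all_iff.2 main] with x hx
  have hj : ∃ j, x ∈ spanningSets μ j := by
    have : x ∈ ⋃ j, spanningSets μ j := by rw [iUnion_spanningSets]; trivial
    exact mem_iUnion.1 this
  obtain ⟨j, hj⟩ := hj
  exact hx j hj

end unique

variable {M : Type u} [MetricSpace M] [CompleteSpace M] [SecondCountableTopology M]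
  [MeasurableSpace M] [BorelSpace M] {m : Measure M} {K N : ℝ}
  {P : ℝ → (M →ₘ[m] ℝ) → (M →ₘ[m] ℝ)} {p : M} {s₀ C₀ : ℝ}

omit [CompleteSpace M] [SecondCountableTopology M] in
theorem eq_of_ae_eq [m.IsOpenPosMeasure] {f g : M → ℝ} (hf : Continuous f) (hg : Continuous g)
    (h : f =ᵐ[m] g) (x : M) : f x = g x :=
  le_antisymm (le_of_ae_le (m := m) hf hg (h.mono fun x hx => hx.le) x)
    (le_of_ae_le (m := m) hg hf (h.mono fun x hx => hx.ge) x)

/-- the choice of the representatives and of the limit -/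
theorem exists_dat (hS : Std m K N) {U : Ultrafilter ℕ} (hU : (U : Filter ℕ) ≤ atTop)
    {a : M →ₘ[m] ℝ} {l : ℕ → M →ₘ[m] ℝ} {φ u : ℕ → ℝ → M →ₘ[m] ℝ}
    (hfam : ∀ᶠ n in atTop, Fam (sob m) P (en n) a (l n) (φ n) (u n))
    {R D : ℝ} {D' : ℝ → ℝ} {l' : M →ₘ[m] ℝ}
    (hF : ∀ᶠ n in atTop, LevF (sob m) K N (en n) C₀ R D D' l' (φ n) (u n))
    (hfar : ∃ R₀ : ℝ, ∀ t ∈ Icc (0 : ℝ) 1,
      Tendsto (fun n => ∫ x in (Metric.ball p R₀)ᶜ, (φ n t x) ^ 2 ∂m) atTop (𝓝 0)) :
    ∃ Φ φ₀ R₁, Dat m N p U φ Φ φ₀ (|D| + 1) R₁ := by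
  haveI := hS.full
  haveI := H599.std_sf hS
  have hC : IsGamma (sob m) := H599.std_gamma hS
  have hD := hC.toIsDir
  obtain ⟨R₀, hfar⟩ := hfar
  have hD0 : 0 < |D| + 1 := by positivity
  have hDle : D ≤ |D| + 1 := by linarith [le_abs_self D]
  have hD2 : D ^ 2 ≤ (|D| + 1) ^ 2 := by
    rw [← sq_abs D]; gcongr; linarith
  have hboth := hfam.and hF
  have hex : ∀ n, ∃ Φ : ℝ → M → ℝ,
      (Fam (sob m) P (en n) a (l n) (φ n) (u n) ∧ LevF (sob m) K N (en n) C₀ R D D' l' (φ n) (u n)) →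
      UST.LipB (|D| + 1) (|D| + 1) 0 1 Φ ∧ ∀ t ∈ Icc (0 : ℝ) 1, ⇑(φ n t) =ᵐ[m] Φ t := by
    intro n
    by_cases h : (Fam (sob m) P (en n) a (l n) (φ n) (u n) ∧
        LevF (sob m) K N (en n) C₀ R D D' l' (φ n) (u n))
    · obtain ⟨h1, h2⟩ := h
      obtain ⟨Φ, e1, e2, e3⟩ := exists_rep hS hD0 (S := Icc (0 : ℝ) 1) (φ := φ n)
        (fun t ht => (hC.test_A (h1.pair.φ_mem t ht).1).1)
        (fun t ht => (h2.bd t ht).mono fun x hx => hx.trans hDle)
        (fun t ht => (h2.lip t ht).mono fun x hx => hx.trans hD2)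
        (fun s hs t ht => (h2.time s hs t ht).mono fun x hx => hx.trans
          (mul_le_mul_of_nonneg_right hDle (abs_nonneg _)))
      exact ⟨Φ, fun _ => ⟨⟨e1, e2⟩, e3⟩⟩
    · exact ⟨fun _ _ => 0, fun h' => absurd h' h⟩
  choose Φ hΦ using hex
  have hbU := hboth.filter_mono hU
  have hLB : ∀ᶠ n in (U : Filter ℕ), UST.LipB (|D| + 1) (|D| + 1) 0 1 (Φ n) :=
    hbU.mono fun n hn => (hΦ n hn).1
  obtain ⟨φ₀, h0, hlim⟩ := UST.exists_potential U hLB
  have hmem : ∀ᶠ n in (U : Filter ℕ), ∀ t ∈ Icc (0 : ℝ) 1, φ n t ∈ (sob m).TestI :=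
    hbU.mono fun n hn => hn.1.pair.φ_mem
  have hrep : ∀ᶠ n in (U : Filter ℕ), ∀ t ∈ Icc (0 : ℝ) 1, ⇑(φ n t) =ᵐ[m] Φ n t :=
    hbU.mono fun n hn => (hΦ n hn).2
  -- the support
  have hzero : ∀ t ∈ Icc (0 : ℝ) 1, ∀ x, R₀ + 1 ≤ dist p x → φ₀ t x = 0 := by
    intro t ht
    set S : Set M := (Metric.ball p R₀)ᶜ with hS'
    have hSm : MeasurableSet S := Metric.isOpen_ball.measurableSet.compl
    have hc0 : Continuous (φ₀ t) := h0.continuous ht
    have hae : φ₀ t =ᵐ[m.restrict S] fun _ => (0 : ℝ) := by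
      refine limit_unique (l := (U : Filter ℕ)) (f := fun n => φ n t) (B := |D| + 1)
        (Eventually.of_forall fun n => (φ n t).aestronglyMeasurable.restrict)
        hc0.measurable.aestronglyMeasurable aestronglyMeasurable_const ?_ ?_ ?_ ?_ ?_
      · filter_upwards [hbU] with n hn
        exact ae_restrict_of_ae ((hn.2.bd t ht).mono fun x hx => hx.trans hDle)
      · exact Eventually.of_forall fun x => h0.bd t ht x
      · exact Eventually.of_forall fun x => by rw [abs_zero]; exact hD0.le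
      · intro w w0 w1 hw
        have hw' : Integrable (S.indicator w) m := (integrable_indicator_iff hSm).2 hw
        rw [Metric.tendsto_nhds]
        intro ε hε
        filter_upwards [UST.integral_unif_sq hw' hLB h0 hlim (half_pos hε), hrep] with n hn hr
        have e : ∫ x in S, w x * (φ n t x - φ₀ t x) ^ 2 ∂m
            = ∫ x, |S.indicator w x| * (Φ n t x - φ₀ t x) ^ 2 ∂m := by
          rw [← integral_indicator hSm]
          refine integral_congr_ae ?_
          filter_upwards [hr t ht] with x hx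
          by_cases hxS : x ∈ S
          · rw [Set.indicator_of_mem hxS, Set.indicator_of_mem hxS, hx, abs_of_nonneg (w0 x)]
          · rw [Set.indicator_of_notMem hxS, Set.indicator_of_notMem hxS, abs_zero, zero_mul]
        rw [e, Real.dist_eq, sub_zero, abs_of_nonneg (integral_nonneg fun x => by positivity)]
        linarith [hn t ht]
      · intro w w0 w1 hw
        refine squeeze_zero' (Eventually.of_forall fun n => integral_nonneg fun x =>
          mul_nonneg (w0 x) (sq_nonneg _)) ?_ ((hfar t ht).mono_left hU)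
        filter_upwards [hmem] with n hn
        have h2 : MemLp (φ n t) 2 m := hD.memLp _ (hC.test_A (hn t ht).1).1
        refine integral_mono_of_nonneg (Eventually.of_forall fun x =>
          mul_nonneg (w0 x) (sq_nonneg _)) h2.integrable_sq.integrableOn
          (Eventually.of_forall fun x => ?_)
        simp only [sub_zero]
        exact mul_le_of_le_one_left (sq_nonneg _) (w1 x)
    have hae2 : ∀ᵐ x ∂m, x ∈ S → φ₀ t x = 0 := (ae_restrict_iff' hSm).1 hae
    intro x hx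
    by_contra hne
    have hopen : IsOpen ({y | φ₀ t y ≠ 0} ∩ {y | R₀ < dist p y}) :=
      (isOpen_ne_fun hc0 continuous_const).inter
        (isOpen_lt continuous_const (continuous_const.dist continuous_id))
    have hnull : m ({y | φ₀ t y ≠ 0} ∩ {y | R₀ < dist p y}) = 0 := by
      refine measure_mono_null ?_ hae2
      rintro y ⟨hy1, hy2⟩
      simp only [mem_compl_iff, mem_setOf_eq, not_forall]
      refine ⟨?_, hy1⟩
      rw [hS', mem_compl_iff, Metric.mem_ball, not_lt, dist_comm]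
      exact (show R₀ < dist p y from hy2).le
    have hemp := hopen.measure_eq_zero_iff m |>.1 hnull
    have : x ∈ ({y | φ₀ t y ≠ 0} ∩ {y | R₀ < dist p y}) := ⟨hne, by
      show R₀ < dist p x
      linarith⟩
    rw [hemp] at this
    exact this
  refine ⟨Φ, φ₀, R₀ + 1, ?_⟩
  exact
    { std := ⟨K, hS⟩
      D0 := hD0
      lipB := hLB
      rep := hrep
      mem := hmem
      grad := hbU.mono fun n hn t ht => (hn.2.lip t ht).mono fun x hx => hx.trans hD2
      lap := hbU.mono fun n hn t ht => (hn.2.lap t ht).mono fun x hx => by linarith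
      lip0 := h0
      lim := hlim
      far := hzero }

/-- the bound of the density -/
noncomputable def Bt (K N C₀ R t : ℝ) : ℝ := t ^ (-N) * Real.exp (c1 K 1 C₀ * (1 - t)) * R

theorem c1_le (hC : 0 ≤ C₀) (n : ℕ) : c1 K (en n) C₀ ≤ c1 K 1 C₀ := by
  unfold c1
  have := en_le_one n
  have h1 := (en_pos n).le
  gcongr

theorem dens_le (hC : 0 ≤ C₀) {R : ℝ} (hR : 0 ≤ R) {t : ℝ} (ht : t ∈ Ioc (0 : ℝ) 1) (n : ℕ) :
    t ^ (-N) * Real.exp (c1 K (en n) C₀ * (1 - t)) * R ≤ Bt K N C₀ R t := by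
  unfold Bt
  have h1 := c1_le (K := K) hC n
  have h2 : 0 ≤ 1 - t := by linarith [ht.2]
  have h3 : 0 ≤ t ^ (-N) := (Real.rpow_pos_of_pos ht.1 _).le
  gcongr

/-- **the field `plim` of `PA.OutA`** for one ultrafilter -/
theorem potLim_aux (hS : Std m K N) (hs : 0 < s₀) (hC₀ : 0 ≤ C₀) {U : Ultrafilter ℕ}
    (hU : (U : Filter ℕ) ≤ atTop) {φ u : ℕ → ℝ → M →ₘ[m] ℝ}
    (hfam : ∀ᶠ n in atTop, Fam (sob m) P (en n) (cl m (zr p s₀ C₀ 0)) 0 (φ n) (u n))
    {Du : ℝ} {Du' : ℝ → ℝ} (hLU : ∀ᶠ n in atTop, LevU (sob m) K N (en n) C₀ Du Du' (u n))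
    {D : ℝ} {D' : ℝ → ℝ}
    (hLF : ∀ᶠ n in atTop, LevF (sob m) K N (en n) C₀ 1 D D' 0 (φ n) (u n))
    (hup : ∃ δ : ℕ → ℝ, Tendsto δ atTop (𝓝 0) ∧ ∀ᶠ n in atTop, ∀ t ∈ Icc (0 : ℝ) 1,
      ∀ᵐ x ∂m, u n t x ≤ zr p s₀ C₀ t x + δ n)
    (hconv : ∀ t ∈ Icc (0 : ℝ) 1,
      Tendsto (fun n => I ((u n t - cl m (zr p s₀ C₀ t)) ^ 2)) atTop (𝓝 0))
    (hfar : ∃ R₀ : ℝ, ∀ t ∈ Icc (0 : ℝ) 1,
      Tendsto (fun n => ∫ x in (Metric.ball p R₀)ᶜ, (φ n t x) ^ 2 ∂m) atTop (𝓝 0)) :
    ∃ φ₀ L B R₀ c, PotLim m N p s₀ C₀ U φ u φ₀ L B R₀ c := by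
  haveI := hS.full
  haveI := H599.std_sf hS
  have hC : IsGamma (sob m) := H599.std_gamma hS
  have hD := hC.toIsDir
  obtain ⟨Φ, φ₀, R₁, hdat⟩ := exists_dat (p := p) hS hU hfam hLF hfar
  have hfU := hfam.filter_mono hU
  have hLUU := hLU.filter_mono hU
  have hLFU := hLF.filter_mono hU
  have hτ : ∀ t ∈ Icc (0 : ℝ) 1, 0 < t + s₀ := fun t ht => by linarith [ht.1]
  have hzc : ∀ t, Continuous (zr p s₀ C₀ t) := fun t => H599.zr_continuous p s₀ C₀ t
  have hzm : ∀ t ∈ Icc (0 : ℝ) 1, cl m (zr p s₀ C₀ t) ∈ (sob m).A := fun t ht =>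
    H599.zr_memA hS.hfin (hτ t ht) hC₀
  -- bounds
  set B₁ : ℝ := max (|D| + 1) C₀ with hB₁
  have hφB : ∀ᶠ n in (U : Filter ℕ), ∀ t ∈ Icc (0 : ℝ) 1, ∀ᵐ x ∂m, |φ n t x| ≤ B₁ := by
    filter_upwards [hLFU] with n hn t ht
    filter_upwards [hn.bd t ht] with x hx
    exact hx.trans ((by linarith [le_abs_self D] : D ≤ |D| + 1).trans (le_max_left _ _))
  have huB : ∀ᶠ n in (U : Filter ℕ), ∀ t ∈ Icc (0 : ℝ) 1, ∀ᵐ x ∂m, |u n t x| ≤ B₁ := by
    filter_upwards [hLUU] with n hn t ht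
    filter_upwards [hn.lo t ht, hn.hi t ht] with x a b
    exact (abs_le.2 ⟨a, b.trans hC₀⟩).trans (le_max_right _ _)
  have hzB : ∀ t ∈ Icc (0 : ℝ) 1, ∀ x, |zr p s₀ C₀ t x| ≤ B₁ := fun t ht x =>
    (H599.abs_zr_le (hτ t ht) hC₀ x).trans (le_max_right _ _)
  have hφ0B : ∀ t ∈ Icc (0 : ℝ) 1, ∀ x, |φ₀ t x| ≤ B₁ := fun t ht x =>
    (hdat.lip0.bd t ht x).trans (le_max_left _ _)
  -- weighted convergence
  have hl1 : ∀ t ∈ Icc (0 : ℝ) 1, LocL2 (U : Filter ℕ) (fun n => φ n t) (φ₀ t) := by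
    intro t ht w w0 hw
    refine (hdat.conv ht hw).congr fun n => integral_congr_ae (Eventually.of_forall fun x => ?_)
    simp only [abs_of_nonneg (w0 x)]
  have hl2 : ∀ t ∈ Icc (0 : ℝ) 1, LocL2 (U : Filter ℕ) (fun n => u n t) (zr p s₀ C₀ t) := by
    intro t ht w w0 hw
    set w' : M →ₘ[m] ℝ := AEEqFun.mk w hw.aestronglyMeasurable with hw'
    have hww : ⇑w' =ᵐ[m] w := AEEqFun.coeFn_mk _ _
    have h1 : MemLp w' 1 m := (memLp_congr_ae hww).2 (memLp_one_iff_integrable.2 hw)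
    have h0 : 0 ≤ w' := by
      rw [nonneg_iff_ae]
      filter_upwards [hww] with x hx
      rw [hx]; exact w0 x
    have := H715.tendsto_weight_sq (l := (U : Filter ℕ)) (L := 2 * B₁) hC
      (f := fun n => u n t - cl m (zr p s₀ C₀ t)) (by
        filter_upwards [hfU, huB] with n hn hb
        refine ⟨mem_sub (hD.memLp _ (hC.test_A (hn.pair.u_mem t ht).1).1)
          (hD.memLp _ (hzm t ht).1), ?_⟩
        filter_upwards [hb t ht, sub_ae (u n t) (cl m (zr p s₀ C₀ t)),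
          H599.zr_cl_ae (m := m) p s₀ C₀ t] with x a b c
        rw [b, c]
        have h5 := hzB t ht x
        calc |u n t x - zr p s₀ C₀ t x| ≤ |u n t x| + |zr p s₀ C₀ t x| := abs_sub _ _
          _ ≤ 2 * B₁ := by linarith) ((hconv t ht).mono_left hU) h0 h1
    refine this.congr fun n => ?_
    unfold I
    refine integral_congr_ae ?_
    filter_upwards [mul_ae w' ((u n t - cl m (zr p s₀ C₀ t)) ^ 2),
      sq_ae (u n t - cl m (zr p s₀ C₀ t)), sub_ae (u n t) (cl m (zr p s₀ C₀ t)), hww,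
      H599.zr_cl_ae (m := m) p s₀ C₀ t] with x a b c d e
    rw [a, b, c, d, e]
  -- `φ ≤ z` for positive times
  have hle1 : ∀ t ∈ Ioc (0 : ℝ) 1, ∀ x, φ₀ t x ≤ zr p s₀ C₀ t x := by
    intro t ht x
    have ht' : t ∈ Icc (0 : ℝ) 1 := ⟨ht.1.le, ht.2⟩
    obtain ⟨δ, hδ, hup⟩ := hup
    have hBpos : 0 < Bt K N C₀ 1 t := by
      unfold Bt
      have := Real.rpow_pos_of_pos ht.1 (-N)
      positivity
    have hlim2 : Tendsto (fun n => zr p s₀ C₀ t x + δ n + en n * Real.log (Bt K N C₀ 1 t)) U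
        (𝓝 (zr p s₀ C₀ t x)) := by
      have := ((hδ.const_add (zr p s₀ C₀ t x)).add
        (en_tendsto.mul_const (Real.log (Bt K N C₀ 1 t)))).mono_left hU
      simpa using this
    refine le_of_tendsto_of_tendsto (hdat.lim t ht' x) hlim2 ?_
    filter_upwards [hup.filter_mono hU, hLFU, hdat.rep, hdat.lipB] with n h1 h2 h3 h4
    refine le_of_ae_le (m := m) (f := Φ n t)
      (g := fun x => zr p s₀ C₀ t x + δ n + en n * Real.log (Bt K N C₀ 1 t))
      (h4.continuous ht') (((hzc t).add continuous_const).add continuous_const) ?_ x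
    filter_upwards [h1 t ht', h2.dens t ht, h3 t ht', rh_ae (ε := en n) (φ := φ n) (u := u n)
      (t := t)] with y a b c d
    rw [d] at b
    have e1 := b.trans (dens_le (K := K) (N := N) hC₀ zero_le_one ht n)
    have e2 : (en n)⁻¹ * (φ n t y - u n t y) ≤ Real.log (Bt K N C₀ 1 t) := by
      rw [Real.le_log_iff_exp_le hBpos]; exact e1
    have e3 : φ n t y - u n t y ≤ en n * Real.log (Bt K N C₀ 1 t) := by
      rwa [inv_mul_le_iff₀ (en_pos n)] at e2
    rw [← c]
    linarith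
  -- at time zero
  have hle : ∀ t ∈ Icc (0 : ℝ) 1, ∀ x, φ₀ t x ≤ zr p s₀ C₀ t x := by
    intro t ht x
    rcases ht.1.eq_or_lt with h | h
    · subst h
      have hc := hdat.lip0.continuousOn x 0 ⟨le_rfl, zero_le_one⟩
      have hc2 : Tendsto (fun s => φ₀ s x) (𝓝[Ioc (0 : ℝ) 1] 0) (𝓝 (φ₀ 0 x)) :=
        hc.mono_left (nhdsWithin_mono _ Ioc_subset_Icc_self)
      haveI : (𝓝[Ioc (0 : ℝ) 1] 0).NeBot := by
        rw [← mem_closure_iff_nhdsWithin_neBot, closure_Ioc zero_ne_one]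
        exact ⟨le_rfl, zero_le_one⟩
      refine le_of_tendsto hc2 ?_
      filter_upwards [self_mem_nhdsWithin] with s hs'
      exact (hle1 s hs' x).trans (H599.zr_anti hs le_rfl hs'.1.le x)
    · exact hle1 t ⟨h, ht.2⟩ x
  -- at time one
  have hone : ∀ x, φ₀ 1 x = zr p s₀ C₀ 1 x := by
    have h1 : (1 : ℝ) ∈ Icc (0 : ℝ) 1 := ⟨zero_le_one, le_rfl⟩
    have hae : φ₀ 1 =ᵐ[m] zr p s₀ C₀ 1 := by
      refine limit_unique (l := (U : Filter ℕ)) (f := fun n => φ n 1) (B := B₁)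
        (Eventually.of_forall fun n => (φ n 1).aestronglyMeasurable)
        (hdat.cont h1).measurable.aestronglyMeasurable (hzc 1).measurable.aestronglyMeasurable
        (hφB.mono fun n hn => hn 1 h1) (Eventually.of_forall (hφ0B 1 h1))
        (Eventually.of_forall (hzB 1 h1)) (fun w w0 _ hw => hl1 1 h1 w w0 hw) ?_
      intro w w0 _ hw
      refine (hl2 1 h1 w w0 hw).congr' ?_
      filter_upwards [hfU] with n hn
      have : φ n 1 = u n 1 := by rw [hn.fin, smul_zero, add_zero]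
      simp only [this]
    exact eq_of_ae_eq (hdat.cont h1) (hzc 1) hae
  refine ⟨φ₀, |D| + 1, |D| + 1, R₁, |D| + 1, ?_⟩
  exact
    { lip := hdat.lip0.lip
      lo := fun t ht x => (abs_le.1 (hdat.lip0.bd t ht x)).1
      le := hle
      far := hdat.far
      one := hone
      convφ := fun t ht w w0 hw => hdat.convφ ht w0 hw
      lapφ := fun t ht g hg g0 g1 => hdat.lapφ ht hg g0 g1
      gradφ := fun t ht w _ hw => hdat.gradφ ht hw
      dead := by
        intro t ht r r₀ c₀ hr hw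
        have ht' : t ∈ Icc (0 : ℝ) 1 := ⟨ht.1.le, ht.2.le⟩
        have ht2 : t ∈ Ioc (0 : ℝ) 1 := ⟨ht.1, ht.2.le⟩
        have hB0 : 0 ≤ Bt K N C₀ 1 t := by
          unfold Bt
          have := Real.rpow_pos_of_pos ht.1 (-N)
          positivity
        refine dead (l := (U : Filter ℕ)) (ε := en) (en_tendsto'.mono_left hU)
          (φn := fun n => φ n t) (un := fun n => u n t) (rn := r)
          (hdat.cont ht').measurable.aestronglyMeasurable (hzc t).measurable.aestronglyMeasurable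
          (B := B₁) (Eventually.of_forall (hφ0B t ht')) (Eventually.of_forall (hzB t ht'))
          (hφB.mono fun n hn => hn t ht') (huB.mono fun n hn => hn t ht') (hl1 t ht') (hl2 t ht')
          (c₀ := |c₀|) (k := |c₀| * Bt K N C₀ 1 t) (abs_nonneg _)
          (mul_nonneg (abs_nonneg _) hB0) ?_ ?_ hw
        · refine Eventually.of_forall fun n => ?_
          filter_upwards [hr n, rh_ae (ε := en n) (φ := φ n) (u := u n) (t := t)] with x a b
          rw [← b]
          refine a.trans (mul_le_mul_of_nonneg_right (le_abs_self _) ?_)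
          rw [b]; exact (Real.exp_pos _).le
        · filter_upwards [hLFU] with n hn
          filter_upwards [hr n, rh_ae (ε := en n) (φ := φ n) (u := u n) (t := t), hn.dens t ht2]
            with x a b c
          have e1 := c.trans (dens_le (K := K) (N := N) hC₀ zero_le_one ht2 n)
          have e2 : 0 ≤ rh (en n) (φ n) (u n) t x := by rw [b]; exact (Real.exp_pos _).le
          calc |r n x| ≤ c₀ * rh (en n) (φ n) (u n) t x := a
            _ ≤ |c₀| * rh (en n) (φ n) (u n) t x :=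
              mul_le_mul_of_nonneg_right (le_abs_self _) e2
            _ ≤ |c₀| * Bt K N C₀ 1 t := mul_le_mul_of_nonneg_left e1 (abs_nonneg _)
      loc := by
        intro t ht h hh
        filter_upwards [hD.Γ_eq_on (hdat.clm ht).1.1 (hzm t ht).1 hh, hdat.ae ht,
          H599.zr_cl_ae (m := m) p s₀ C₀ t] with x a b c hx
        exact a (by rw [b, c, hx]) }

/-- **the field `plim` of `PA.OutA`** -/
theorem potLim (hS : Std m K N) (hs : 0 < s₀) (hC₀ : 0 ≤ C₀) {φ u : ℕ → ℝ → M →ₘ[m] ℝ}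
    (hfam : ∀ᶠ n in atTop, Fam (sob m) P (en n) (cl m (zr p s₀ C₀ 0)) 0 (φ n) (u n))
    (hLU : ∃ D D', ∀ᶠ n in atTop, LevU (sob m) K N (en n) C₀ D D' (u n))
    (hLF : ∃ D D', ∀ᶠ n in atTop, LevF (sob m) K N (en n) C₀ 1 D D' 0 (φ n) (u n))
    (hul : ULim m K N p s₀ C₀ u)
    (hfar : ∃ R₀ : ℝ, ∀ t ∈ Icc (0 : ℝ) 1,
      Tendsto (fun n => ∫ x in (Metric.ball p R₀)ᶜ, (φ n t x) ^ 2 ∂m) atTop (𝓝 0)) :
    ∀ U : Ultrafilter ℕ, (U : Filter ℕ) ≤ atTop → ∃ φ₀ L B R₀ c,
      PotLim m N p s₀ C₀ U φ u φ₀ L B R₀ c := by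
  intro U hU
  obtain ⟨Du, Du', hLU⟩ := hLU
  obtain ⟨D, D', hLF⟩ := hLF
  exact potLim_aux hS hs hC₀ hU hfam hLU hLF hul.up hul.conv hfar

end H769

end Vale.Agent.P233
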